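import Vale.Agent.P091.CH.Props
import Vale.Agent.P091.CH.H815.Per

/-!
# Carleson–Hunt on the grid: rows GEO1–GEO4 and the basic API of `nrm`, `dy`, `pt`  (helper69)
-/

open Finset

namespace Vale.Agent.P091.CH.H69

variable {K : ℕ}

theorem nrm_intCast (a : ℤ) : nrm ((a : ℤ) : X K) = Per.nrm ((a : ℝ) / 2 ^ K) := by
  unfold nrm
  rw [ZMod.toAddCircle_intCast, Per.nrm_eq_norm]
  push_cast
  rfl

theorem nrm_natCast (a : ℕ) : nrm ((a : ℕ) : X K) = Per.nrm ((a : ℝ) / 2 ^ K) := by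
  have := nrm_intCast (K := K) (a : ℤ)
  simpa using this

theorem nrm_val (x : X K) : nrm x = Per.nrm ((x.val : ℝ) / 2 ^ K) := by
  conv_lhs => rw [← ZMod.natCast_zmod_val x]
  exact nrm_natCast _

theorem nrm_nonneg (x : X K) : 0 ≤ nrm x := norm_nonneg _

theorem nrm_le_half (x : X K) : nrm x ≤ 1 / 2 := by
  rw [nrm_val]; exact Per.nrm_le_half _

@[simp] theorem nrm_zero : nrm (0 : X K) = 0 := by unfold nrm; simp

theorem nrm_eq_zero {x : X K} : nrm x = 0 ↔ x = 0 := by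
  unfold nrm
  rw [norm_eq_zero, ZMod.toAddCircle_eq_zero]

theorem nrm_neg (x : X K) : nrm (-x) = nrm x := by unfold nrm; rw [map_neg, norm_neg]

theorem nrm_sub_comm (x y : X K) : nrm (x - y) = nrm (y - x) := by rw [← nrm_neg, neg_sub]

theorem nrm_add_le (x y : X K) : nrm (x + y) ≤ nrm x + nrm y := by
  unfold nrm; rw [map_add]; exact norm_add_le _ _

theorem nrm_tri (x y z : X K) : nrm (x - z) ≤ nrm (x - y) + nrm (y - z) := by
  have := nrm_add_le (x - y) (y - z)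
  rwa [sub_add_sub_cancel] at this

theorem nrm_sub_natCast (x : X K) (a : ℕ) :
    nrm (x - ((a : ℕ) : X K)) = Per.nrm ((x.val : ℝ) / 2 ^ K - (a : ℝ) / 2 ^ K) := by
  have h : x - ((a : ℕ) : X K) = (((x.val : ℤ) - (a : ℤ) : ℤ) : X K) := by
    push_cast
    rw [ZMod.natCast_zmod_val]
  rw [h, nrm_intCast]
  congr 1
  push_cast
  ring

theorem nrm_sub_val (x y : X K) :
    nrm (x - y) = Per.nrm ((x.val : ℝ) / 2 ^ K - (y.val : ℝ) / 2 ^ K) := by
  conv_lhs => rw [← ZMod.natCast_zmod_val y]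
  exact nrm_sub_natCast _ _

theorem two_pow_pos' (k : ℕ) : (0 : ℝ) < 2 ^ k := by positivity

/-- distance to a natural number point is at most the difference of the representatives -/
theorem nrm_sub_natCast_le (x : X K) (a : ℕ) :
    nrm (x - ((a : ℕ) : X K)) ≤ |(x.val : ℝ) - a| / 2 ^ K := by
  rw [nrm_sub_natCast]
  refine (Per.nrm_le_abs _).trans ?_
  rw [← sub_div, abs_div, abs_of_pos (two_pow_pos' K)]

theorem nrm_sub_val_le (x y : X K) : nrm (x - y) ≤ |(x.val : ℝ) - y.val| / 2 ^ K := by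
  conv_lhs => rw [← ZMod.natCast_zmod_val y]
  exact nrm_sub_natCast_le _ _

theorem mem_dy {k j : ℕ} {x : X K} : x ∈ dy K k j ↔ x.val / 2 ^ (K - k) = j := by
  simp [dy]

theorem mem_dy_iff {k j : ℕ} {x : X K} :
    x ∈ dy K k j ↔ j * 2 ^ (K - k) ≤ x.val ∧ x.val < (j + 1) * 2 ^ (K - k) := by
  rw [mem_dy, Nat.div_eq_iff (by positivity)]
  have : 0 < 2 ^ (K - k) := by positivity
  constructor
  · rintro ⟨h1, h2⟩; exact ⟨h1, by rw [add_mul, one_mul]; omega⟩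
  · rintro ⟨h1, h2⟩; rw [add_mul, one_mul] at h2; exact ⟨h1, by omega⟩

/-- real form of the position of a sampling point -/
theorem nrm_sub_pt {k j r : ℕ} (hk : k + 3 ≤ K) (x : X K) :
    nrm (x - pt K k j r) =
      Per.nrm (((x.val : ℝ) / 2 ^ K - (r : ℝ) / 2 ^ (k + 3)) - (j : ℝ) / ((2 ^ k : ℕ) : ℝ)) := by
  unfold pt
  rw [nrm_sub_natCast]
  congr 1
  obtain ⟨d, rfl⟩ := Nat.exists_eq_add_of_le hk
  have e1 : k + 3 + d - k = d + 3 := by omega
  rw [e1]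
  simp only [Nat.add_sub_cancel]
  push_cast
  have h2 : (2 : ℝ) ≠ 0 := two_ne_zero
  field_simp
  ring

theorem card_range_fiber (a b s : ℕ) (hs : s < b) (F : ℕ → ℝ) :
    ∑ n ∈ (range (a * b)).filter (fun n => n % b = s), F n = ∑ q ∈ range a, F (s + q * b) := by
  symm
  refine Finset.sum_nbij (fun q => s + q * b) ?_ ?_ ?_ ?_
  · intro q hq
    rw [mem_range] at hq
    rw [mem_filter, mem_range]
    refine ⟨?_, ?_⟩
    · calc s + q * b < b + q * b := by omega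
        _ = (q + 1) * b := by ring
        _ ≤ a * b := Nat.mul_le_mul_right _ hq
    · rw [Nat.add_mul_mod_self_right, Nat.mod_eq_of_lt hs]
  · intro q _ q' _ h
    simp only at h
    have hb : 0 < b := by omega
    have : q * b = q' * b := by omega
    exact Nat.eq_of_mul_eq_mul_right hb this
  · intro n hn
    rw [coe_filter, Set.mem_ofPred_eq, mem_range] at hn
    refine ⟨n / b, ?_, ?_⟩
    · rw [coe_range, Set.mem_Iio]
      exact Nat.div_lt_of_lt_mul (by rw [mul_comm]; exact hn.1)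
    · simp only
      have := Nat.div_add_mod n b
      rw [hn.2] at this
      rw [mul_comm]; omega
  · intro q _; rfl

theorem sum_range_mul (a b : ℕ) (hb : 0 < b) (F : ℕ → ℝ) :
    ∑ n ∈ range (a * b), F n = ∑ s ∈ range b, ∑ q ∈ range a, F (s + q * b) := by
  rw [← Finset.sum_fiberwise_of_maps_to (s := range (a * b)) (t := range b) (g := fun n => n % b)
    (fun n _ => mem_range.2 (Nat.mod_lt n hb))]
  refine Finset.sum_congr rfl fun s hs => ?_
  exact card_range_fiber a b s (mem_range.1 hs) F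

/-- sums over the grid as sums over `range (2^K)` -/
theorem sum_X (F : X K → ℝ) : ∑ x, F x = ∑ n ∈ range (2 ^ K), F (n : ℕ) := by
  symm
  refine Finset.sum_nbij (fun n => ((n : ℕ) : X K)) (fun _ _ => mem_univ _) ?_ ?_ (fun _ _ => rfl)
  · intro a ha b hb h
    rw [coe_range, Set.mem_Iio] at ha hb
    simp only at h
    rw [ZMod.natCast_eq_natCast_iff'] at h
    rwa [Nat.mod_eq_of_lt ha, Nat.mod_eq_of_lt hb] at h
  · intro x _
    exact ⟨x.val, by rw [coe_range, Set.mem_Iio]; exact ZMod.val_lt x, ZMod.natCast_zmod_val x⟩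

/-- translation invariance of sums -/
theorem sum_sub (F : X K → ℝ) (c : X K) : ∑ x, F (x - c) = ∑ x, F x :=
  Equiv.sum_comp (Equiv.subRight c) F

/-- general weight sum: `∑_x (1+2^k |x-c|)^{-n} ≤ 4 · 2^{K-k}` -/
theorem sum_dk_nrm {n : ℕ} (hn : 2 ≤ n) {k : ℕ} (hk : k ≤ K) (c : X K) :
    ∑ x, Per.dk n (2 ^ k * nrm (x - c)) ≤ 4 * 2 ^ (K - k) := by
  rw [sum_sub (fun x => Per.dk n (2 ^ k * nrm x)) c, sum_X]
  have hK : 2 ^ K = 2 ^ k * 2 ^ (K - k) := by rw [← pow_add, Nat.add_sub_cancel' hk]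
  have hF : ∀ F : ℕ → ℝ, ∑ n ∈ range (2 ^ K), F n =
      ∑ s ∈ range (2 ^ (K - k)), ∑ q ∈ range (2 ^ k), F (s + q * 2 ^ (K - k)) := by
    intro F
    rw [← sum_range_mul _ _ (by positivity), ← hK]
  rw [hF]
  have : ∀ s ∈ range (2 ^ (K - k)), ∑ q ∈ range (2 ^ k),
      Per.dk n (2 ^ k * nrm (((s + q * 2 ^ (K - k) : ℕ)) : X K)) ≤ 4 := by
    intro s _
    have h := Per.sum_dk_points hn (M := 2 ^ k) (by positivity) (-((s : ℝ) / 2 ^ K))
    refine le_trans (le_of_eq ?_) h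
    refine Finset.sum_congr rfl fun q _ => ?_
    congr 1
    push_cast
    congr 1
    have e : -((s : ℝ) / 2 ^ K) - (q : ℝ) / 2 ^ k =
        -(((s + q * 2 ^ (K - k) : ℕ) : ℝ) / 2 ^ K) := by
      have : (2 : ℝ) ^ K = 2 ^ k * 2 ^ (K - k) := by exact_mod_cast hK
      push_cast
      rw [this]
      field_simp
      ring
    rw [e, Per.nrm_neg, ← nrm_natCast (K := K)]
    push_cast
    rfl
  calc _ ≤ ∑ s ∈ range (2 ^ (K - k)), (4 : ℝ) := Finset.sum_le_sum this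
    _ = 4 * 2 ^ (K - k) := by rw [sum_const, card_range, nsmul_eq_mul]; push_cast; ring

theorem dk_eq (n : ℕ) (a : ℝ) : Per.dk n a = (1 + a)⁻¹ ^ n := by
  unfold Per.dk; rw [inv_pow]

theorem pow_sub_div (k K : ℕ) (hk : k ≤ K) : (2 : ℝ) ^ (K - k) / 2 ^ K = ((2 : ℝ) ^ k)⁻¹ := by
  rw [pow_sub₀ _ two_ne_zero hk]
  field_simp

/-- GEO1 for every exponent `n ≥ 2` -/
theorem geo1 {n : ℕ} (hn : 2 ≤ n) {k : ℕ} (hk : k ≤ K) (c : X K) :
    ave (fun x => (1 + 2 ^ k * nrm (x - c))⁻¹ ^ n) ≤ 4 * ((2 : ℝ) ^ k)⁻¹ := by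
  unfold ave
  simp only [← dk_eq]
  rw [← pow_sub_div k K hk, ← mul_div_assoc]
  exact div_le_div_of_nonneg_right (sum_dk_nrm hn hk c) (by positivity)

theorem pGEO1 : P_GEO1 := ⟨4, fun _ _ c hk => geo1 le_rfl hk c⟩

/-- GEO2 for every exponent `n ≥ 2` -/
theorem geo2 {n : ℕ} (hn : 2 ≤ n) {k r : ℕ} (hk : k + 3 ≤ K) (x : X K) :
    ∑ j ∈ range (2 ^ k), (1 + 2 ^ k * nrm (x - pt K k j r))⁻¹ ^ n ≤ 4 := by
  have h := Per.sum_dk_points hn (M := 2 ^ k) (by positivity)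
    ((x.val : ℝ) / 2 ^ K - (r : ℝ) / 2 ^ (k + 3))
  refine le_trans (le_of_eq ?_) h
  refine Finset.sum_congr rfl fun j _ => ?_
  rw [← dk_eq, nrm_sub_pt hk]
  push_cast
  rfl

theorem pGEO2 : P_GEO2 := ⟨4, fun _ _ _ x hk _ => geo2 le_rfl hk x⟩

theorem nrm_le_of_dy {k j : ℕ} (hk : k ≤ K) {x : X K} (hx : x ∈ dy K k j) {a : ℕ}
    (ha : j * 2 ^ (K - k) ≤ a) (ha' : a ≤ (j + 1) * 2 ^ (K - k)) :
    nrm (x - ((a : ℕ) : X K)) ≤ ((2 : ℝ) ^ k)⁻¹ := by
  refine (nrm_sub_natCast_le x a).trans ?_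
  rw [← pow_sub_div k K hk]
  refine div_le_div_of_nonneg_right ?_ (by positivity)
  rw [mem_dy_iff] at hx
  have h1 : ((j * 2 ^ (K - k) : ℕ) : ℝ) ≤ x.val := by exact_mod_cast hx.1
  have h2 : ((x.val : ℕ) : ℝ) ≤ (((j + 1) * 2 ^ (K - k) : ℕ) : ℝ) := by exact_mod_cast hx.2.le
  have h3 : ((j * 2 ^ (K - k) : ℕ) : ℝ) ≤ a := by exact_mod_cast ha
  have h4 : ((a : ℕ) : ℝ) ≤ (((j + 1) * 2 ^ (K - k) : ℕ) : ℝ) := by exact_mod_cast ha'
  push_cast at h1 h2 h3 h4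
  rw [abs_le]
  constructor <;> nlinarith

/-- two points of one dyadic interval -/
theorem nrm_le_of_dy_dy {k j : ℕ} (hk : k ≤ K) {x y : X K} (hx : x ∈ dy K k j)
    (hy : y ∈ dy K k j) : nrm (x - y) ≤ ((2 : ℝ) ^ k)⁻¹ := by
  have := nrm_le_of_dy hk hx (a := y.val) (mem_dy_iff.1 hy).1 (mem_dy_iff.1 hy).2.le
  rwa [ZMod.natCast_zmod_val] at this

theorem nrm_sub_pt_le {k j r : ℕ} (hk : k + 3 ≤ K) (hr : r < 8) {x : X K} (hx : x ∈ dy K k j) :
    nrm (x - pt K k j r) ≤ ((2 : ℝ) ^ k)⁻¹ := by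
  unfold pt
  refine nrm_le_of_dy (by omega) hx (by omega) ?_
  have e : 2 ^ (K - k) = 8 * 2 ^ (K - k - 3) := by
    have : K - k = 3 + (K - k - 3) := by omega
    conv_lhs => rw [this, pow_add]
    norm_num
  rw [add_mul, one_mul]
  have : r * 2 ^ (K - k - 3) ≤ 8 * 2 ^ (K - k - 3) := Nat.mul_le_mul_right _ hr.le
  omega

theorem pGEO3 : P_GEO3 := fun _ _ _ _ _ hk hr _ hx =>
  ⟨nrm_sub_pt_le hk hr hx, nrm_sub_pt_le hk (by norm_num) hx⟩

theorem card_dy {k j : ℕ} (hk : k ≤ K) (hj : j < 2 ^ k) : (dy K k j).card = 2 ^ (K - k) := by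
  have hK : 2 ^ K = 2 ^ k * 2 ^ (K - k) := by rw [← pow_add, Nat.add_sub_cancel' hk]
  have h : (dy K k j).card = (Finset.Ico (j * 2 ^ (K - k)) ((j + 1) * 2 ^ (K - k))).card := by
    refine Finset.card_bij (fun x _ => x.val) ?_ ?_ ?_
    · intro x hx
      rw [mem_Ico]; exact mem_dy_iff.1 hx
    · intro x _ y _ h
      exact ZMod.val_injective _ h
    · intro n hn
      rw [mem_Ico] at hn
      have hn' : n < 2 ^ K := by
        rw [hK]
        exact lt_of_lt_of_le hn.2 (Nat.mul_le_mul_right _ hj)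
      refine ⟨(n : ℕ), ?_, ZMod.val_natCast_of_lt hn'⟩
      rw [mem_dy_iff, ZMod.val_natCast_of_lt hn']
      exact hn
  rw [h, Nat.card_Ico, add_mul, one_mul, Nat.add_sub_cancel_left]

theorem pGEO4 : P_GEO4 := by
  intro K k j hk hj
  unfold mu
  rw [card_dy hk hj]
  push_cast
  exact pow_sub_div k K hk

/-! ## further facts on dyadic intervals -/

/-- the dyadic intervals of one scale cover the grid -/
theorem exists_dy (k : ℕ) (hk : k ≤ K) (x : X K) : ∃ j < 2 ^ k, x ∈ dy K k j := by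
  refine ⟨x.val / 2 ^ (K - k), ?_, mem_dy.2 rfl⟩
  have hK : 2 ^ K = 2 ^ k * 2 ^ (K - k) := by rw [← pow_add, Nat.add_sub_cancel' hk]
  refine Nat.div_lt_of_lt_mul ?_
  rw [mul_comm, ← hK]
  exact ZMod.val_lt x

theorem dy_disjoint {k j j' : ℕ} (h : j ≠ j') : Disjoint (dy K k j) (dy K k j') := by
  rw [Finset.disjoint_left]
  intro x hx hx'
  exact h ((mem_dy.1 hx).symm.trans (mem_dy.1 hx'))

/-- nesting: the interval `(k,j)` is contained in `(k', j / 2^(k-k'))` for `k' ≤ k` -/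
theorem dy_subset {k k' j : ℕ} (hkk : k' ≤ k) (hk : k ≤ K) : dy K k j ⊆ dy K k' (j / 2 ^ (k - k')) := by
  intro x hx
  rw [mem_dy] at hx ⊢
  rw [← hx, Nat.div_div_eq_div_mul, ← pow_add]
  congr 2
  omega

end Vale.Agent.P091.CH.H69
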