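import Vale.Agent.P091.CH.H69.Light
import Vale.Agent.P091.CH.H350.Far
import Vale.Agent.P091.CH.H43.Msu

/-!
# P091, row P_LIGHT (helper69): only MODT is left as an input
-/

namespace Vale.Agent.P091.CH.H69

/-- **P_LIGHT from MODT alone** (MSU, MS0 by helper43, FAR by helper350) -/
theorem pLIGHT_of_MODT (hT : P_MODT) : P_LIGHT :=
  pLIGHT_of hT H43.p_MSU (H43.p_MS0_of pGEO1) H350.far

end Vale.Agent.P091.CH.H69
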