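import Vale.Agent.P091.CH.H69.Geo

/-!
# Carleson–Hunt on the grid: rows HL1, HL2, HL3 (the maximal function)  (helper69)
-/

open Finset

namespace Vale.Agent.P091.CH.H69

variable {K : ℕ}

/-! ## API of `ave` -/

theorem ave_mono {f g : X K → ℝ} (h : ∀ x, f x ≤ g x) : ave f ≤ ave g :=
  div_le_div_of_nonneg_right (Finset.sum_le_sum fun x _ => h x) (by positivity)

theorem ave_nonneg {f : X K → ℝ} (h : ∀ x, 0 ≤ f x) : 0 ≤ ave f :=
  div_nonneg (Finset.sum_nonneg fun x _ => h x) (by positivity)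

theorem ave_add (f g : X K → ℝ) : ave (fun x => f x + g x) = ave f + ave g := by
  unfold ave; rw [Finset.sum_add_distrib, add_div]

theorem ave_mul_left (c : ℝ) (f : X K → ℝ) : ave (fun x => c * f x) = c * ave f := by
  unfold ave; rw [← Finset.mul_sum, mul_div_assoc]

theorem ave_mul_right (f : X K → ℝ) (c : ℝ) : ave (fun x => f x * c) = ave f * c := by
  unfold ave; rw [← Finset.sum_mul, div_mul_eq_mul_div]

theorem ave_sum {ι : Type*} (s : Finset ι) (f : ι → X K → ℝ) :
    ave (fun x => ∑ i ∈ s, f i x) = ∑ i ∈ s, ave (f i) := by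
  unfold ave; rw [Finset.sum_comm, Finset.sum_div]

theorem ave_const (c : ℝ) : ave (fun _ : X K => c) = c := by
  unfold ave
  rw [Finset.sum_const, nsmul_eq_mul, Finset.card_univ, ZMod.card]
  push_cast
  field_simp

theorem mu_eq_ave (A : Finset (X K)) :
    mu A = ave (fun x => if x ∈ A then 1 else 0) := by
  unfold mu ave
  congr 1
  simp

theorem mu_filter (p : X K → Prop) [DecidablePred p] :
    mu (univ.filter p) = ave (fun x => if p x then 1 else 0) := by
  unfold mu ave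
  congr 1
  rw [← Finset.sum_filter, Finset.sum_const, nsmul_eq_mul, mul_one]

theorem mu_nonneg (A : Finset (X K)) : 0 ≤ mu A := by unfold mu; positivity

theorem mu_le_one (A : Finset (X K)) : mu A ≤ 1 := by
  rw [mu_eq_ave]
  calc ave (fun x => if x ∈ A then (1:ℝ) else 0) ≤ ave (fun _ : X K => (1:ℝ)) :=
        ave_mono fun x => by split_ifs <;> norm_num
    _ = 1 := ave_const 1

theorem mu_mono {A B : Finset (X K)} (h : A ⊆ B) : mu A ≤ mu B := by
  unfold mu
  exact div_le_div_of_nonneg_right (by exact_mod_cast Finset.card_le_card h) (by positivity)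

/-! ## API of `MX` -/

/-- the ball average of the maximal function -/
noncomputable def av (κ : ℕ) (f : X K → ℝ) (x : X K) : ℝ :=
  2 ^ κ * ave (fun y => if nrm (x - y) ≤ ((2:ℝ) ^ κ)⁻¹ then |f y| else 0)

theorem av_le_MX {κ : ℕ} (hκ : κ ≤ K) (f : X K → ℝ) (x : X K) : av κ f x ≤ MX f x := by
  unfold MX
  exact Finset.le_sup' (fun κ => 2 ^ κ * ave (fun y => if nrm (x - y) ≤ ((2:ℝ) ^ κ)⁻¹
    then |f y| else 0)) (Finset.mem_range.2 (by omega))

theorem MX_le {f : X K → ℝ} {x : X K} {t : ℝ} (h : ∀ κ ≤ K, av κ f x ≤ t) : MX f x ≤ t := by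
  unfold MX
  exact Finset.sup'_le _ _ fun κ hκ => h κ (by rw [Finset.mem_range] at hκ; omega)

theorem exists_of_lt_MX {f : X K → ℝ} {x : X K} {t : ℝ} (h : t < MX f x) :
    ∃ κ ≤ K, t < av κ f x := by
  by_contra hc
  push Not at hc
  exact absurd (MX_le hc) (not_le.2 h)

theorem av_nonneg (κ : ℕ) (f : X K → ℝ) (x : X K) : 0 ≤ av κ f x := by
  unfold av
  refine mul_nonneg (by positivity) (ave_nonneg fun y => ?_)
  split_ifs
  · exact abs_nonneg _
  · exact le_rfl

theorem MX_nonneg (f : X K → ℝ) (x : X K) : 0 ≤ MX f x :=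
  (av_nonneg 0 f x).trans (av_le_MX (Nat.zero_le _) f x)

theorem MX_mono {f g : X K → ℝ} (h : ∀ y, |f y| ≤ |g y|) (x : X K) : MX f x ≤ MX g x := by
  refine MX_le fun κ hκ => le_trans ?_ (av_le_MX hκ g x)
  unfold av
  refine mul_le_mul_of_nonneg_left (ave_mono fun y => ?_) (by positivity)
  split_ifs
  · exact h y
  · exact le_rfl

/-- the mean is at most the maximal function -/
theorem ave_le_MX (f : X K → ℝ) (x : X K) : ave (fun y => |f y|) ≤ MX f x := by
  refine le_trans (le_of_eq ?_) (av_le_MX (Nat.zero_le K) f x)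
  unfold av
  rw [pow_zero, one_mul]
  congr 1
  funext y
  rw [if_pos]
  have := nrm_le_half (x - y)
  norm_num
  linarith

/-- `f ≤ MX f` (the smallest ball contains the centre and `2^K · 2^-K = 1`) -/
theorem le_MX (f : X K → ℝ) (x : X K) : |f x| ≤ MX f x := by
  refine le_trans ?_ (av_le_MX le_rfl f x)
  unfold av ave
  rw [mul_div_cancel₀ _ (by positivity : (2:ℝ) ^ K ≠ 0)]
  have h : |f x| = (if nrm (x - x) ≤ ((2:ℝ) ^ K)⁻¹ then |f x| else 0) := by
    rw [if_pos]
    rw [sub_self, nrm_zero]; positivity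
  rw [h]
  exact Finset.single_le_sum (f := fun y => if nrm (x - y) ≤ ((2:ℝ) ^ K)⁻¹ then |f y| else 0)
    (fun y _ => by split_ifs; exacts [abs_nonneg _, le_rfl]) (mem_univ x)

/-- measure of a ball of radius `A 2^-k` -/
theorem ball_le {k : ℕ} (hk : k ≤ K) {A : ℝ} (hA : 0 ≤ A) (c : X K) :
    ave (fun y => if nrm (c - y) ≤ A * ((2:ℝ) ^ k)⁻¹ then (1:ℝ) else 0) ≤
      4 * (1 + A) ^ 2 * ((2:ℝ) ^ k)⁻¹ := by
  have h := geo1 (n := 2) le_rfl hk c
  calc _ ≤ ave (fun y => (1 + A) ^ 2 * (1 + 2 ^ k * nrm (y - c))⁻¹ ^ 2) := by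
        refine ave_mono fun y => ?_
        have hn := nrm_nonneg (y - c)
        have h2 : (0:ℝ) < 2 ^ k := by positivity
        have h3 : 0 < 1 + 2 ^ k * nrm (y - c) := by positivity
        split_ifs with hy
        · rw [← mul_pow]
          have : 1 ≤ (1 + A) * (1 + 2 ^ k * nrm (y - c))⁻¹ := by
            rw [← div_eq_mul_inv, one_le_div h3]
            rw [nrm_sub_comm] at hy
            have : 2 ^ k * nrm (y - c) ≤ 2 ^ k * (A * ((2:ℝ) ^ k)⁻¹) :=
              mul_le_mul_of_nonneg_left hy h2.le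
            have e : 2 ^ k * (A * ((2:ℝ) ^ k)⁻¹) = A := by field_simp
            linarith
          exact one_le_pow₀ this
        · positivity
    _ ≤ (1 + A) ^ 2 * (4 * ((2:ℝ) ^ k)⁻¹) := by
        rw [ave_mul_left]
        exact mul_le_mul_of_nonneg_left h (by positivity)
    _ = _ := by ring

theorem MX_const_le {f : X K → ℝ} {c : ℝ} (hf : ∀ y, |f y| ≤ c) (x : X K) : MX f x ≤ 16 * c := by
  have hc : 0 ≤ c := (abs_nonneg _).trans (hf x)
  refine MX_le fun κ hκ => ?_
  unfold av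
  calc (2:ℝ) ^ κ * ave (fun y => if nrm (x - y) ≤ ((2:ℝ) ^ κ)⁻¹ then |f y| else 0)
      ≤ 2 ^ κ * ave (fun y => c * (if nrm (x - y) ≤ 1 * ((2:ℝ) ^ κ)⁻¹ then (1:ℝ) else 0)) := by
        refine mul_le_mul_of_nonneg_left (ave_mono fun y => ?_) (by positivity)
        rw [one_mul]
        split_ifs
        · rw [mul_one]; exact hf y
        · rw [mul_zero]
    _ ≤ 2 ^ κ * (c * (4 * (1 + 1) ^ 2 * ((2:ℝ) ^ κ)⁻¹)) := by
        rw [ave_mul_left]
        gcongr
        exact ball_le hκ zero_le_one x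
    _ = 16 * c := by field_simp; ring

theorem MX_add_le (f g : X K → ℝ) (x : X K) : MX (fun y => f y + g y) x ≤ MX f x + MX g x := by
  refine MX_le fun κ hκ => ?_
  refine le_trans ?_ (add_le_add (av_le_MX hκ f x) (av_le_MX hκ g x))
  unfold av
  rw [← mul_add, ← ave_add]
  refine mul_le_mul_of_nonneg_left (ave_mono fun y => ?_) (by positivity)
  split_ifs
  · exact abs_add_le _ _
  · simp

/-! ## HL1 -/

theorem dist_toAddCircle (x y : X K) :
    dist (ZMod.toAddCircle x) (ZMod.toAddCircle y) = nrm (x - y) := by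
  rw [dist_eq_norm, ← map_sub]; rfl

theorem hl1 (f : X K → ℝ) {t : ℝ} (ht : 0 < t) :
    t * mu (univ.filter (fun x => t < MX f x)) ≤ 144 * ave (fun x => |f x|) := by
  classical
  have hex : ∀ x : X K, ∃ κ, t < MX f x → κ ≤ K ∧ t < av κ f x := by
    intro x
    by_cases h : t < MX f x
    · obtain ⟨κ, h1, h2⟩ := exists_of_lt_MX h
      exact ⟨κ, fun _ => ⟨h1, h2⟩⟩
    · exact ⟨0, fun h' => absurd h' h⟩
  choose κ hκ using hex
  obtain ⟨u, hu, hdis, hcov⟩ := Vitali.exists_disjoint_subfamily_covering_enlargement_closedBall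
    {x : X K | t < MX f x} (fun x => ZMod.toAddCircle x) (fun x => ((2:ℝ) ^ κ x)⁻¹) 1
    (fun a _ => inv_le_one_of_one_le₀ (one_le_pow₀ one_le_two)) 5 (by norm_num)
  set U : Finset (X K) := u.toFinite.toFinset with hU
  have memU : ∀ b, b ∈ U ↔ b ∈ u := fun b => Set.Finite.mem_toFinset _
  have hr : ∀ b : X K, (0:ℝ) < ((2:ℝ) ^ κ b)⁻¹ := fun b => by positivity
  -- covering
  have h1 : mu (univ.filter (fun x => t < MX f x)) ≤
      ∑ b ∈ U, ave (fun y => if nrm (b - y) ≤ 5 * ((2:ℝ) ^ κ b)⁻¹ then (1:ℝ) else 0) := by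
    rw [mu_filter, ← ave_sum]
    refine ave_mono fun y => ?_
    split_ifs with hy
    · obtain ⟨b, hb, hyb⟩ := hcov y hy
      have : nrm (b - y) ≤ 5 * ((2:ℝ) ^ κ b)⁻¹ := by
        have hmem : ZMod.toAddCircle y ∈ Metric.closedBall (ZMod.toAddCircle y) ((2:ℝ) ^ κ y)⁻¹ :=
          Metric.mem_closedBall_self (hr y).le
        have h' := hyb hmem
        rw [Metric.mem_closedBall, dist_comm, dist_toAddCircle] at h'
        exact h'
      calc (1:ℝ) = (if nrm (b - y) ≤ 5 * ((2:ℝ) ^ κ b)⁻¹ then (1:ℝ) else 0) := by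
            rw [if_pos this]
        _ ≤ _ := Finset.single_le_sum (f := fun b => if nrm (b - y) ≤ 5 * ((2:ℝ) ^ κ b)⁻¹
            then (1:ℝ) else 0) (fun b _ => by split_ifs <;> norm_num) ((memU b).2 hb)
    · exact Finset.sum_nonneg fun b _ => by split_ifs <;> norm_num
  have h2 : ∀ b ∈ U, ave (fun y => if nrm (b - y) ≤ 5 * ((2:ℝ) ^ κ b)⁻¹ then (1:ℝ) else 0) ≤
      144 * ((2:ℝ) ^ κ b)⁻¹ := by
    intro b hb
    have := ball_le (hκ b (hu ((memU b).1 hb))).1 (A := 5) (by norm_num) b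
    refine this.trans (le_of_eq ?_)
    norm_num
  have h3 : ∀ b ∈ U, t * ((2:ℝ) ^ κ b)⁻¹ ≤
      ave (fun y => if nrm (b - y) ≤ ((2:ℝ) ^ κ b)⁻¹ then |f y| else 0) := by
    intro b hb
    have := (hκ b (hu ((memU b).1 hb))).2
    unfold av at this
    rw [← div_eq_mul_inv, div_le_iff₀ (by positivity), mul_comm]
    exact this.le
  have h4 : ∑ b ∈ U, ave (fun y => if nrm (b - y) ≤ ((2:ℝ) ^ κ b)⁻¹ then |f y| else 0) ≤
      ave (fun y => |f y|) := by
    rw [← ave_sum]
    refine ave_mono fun y => ?_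
    by_cases hy : ∃ b ∈ U, nrm (b - y) ≤ ((2:ℝ) ^ κ b)⁻¹
    · obtain ⟨b, hb, hyb⟩ := hy
      rw [Finset.sum_eq_single_of_mem b hb]
      · rw [if_pos hyb]
      · intro c hc hcb
        rw [if_neg]
        intro hyc
        have hd := hdis ((memU c).1 hc) ((memU b).1 hb) hcb
        simp only [Function.onFun] at hd
        rw [Set.disjoint_left] at hd
        refine hd (a := ZMod.toAddCircle y) ?_ ?_
        · rw [Metric.mem_closedBall, dist_comm, dist_toAddCircle]; exact hyc
        · rw [Metric.mem_closedBall, dist_comm, dist_toAddCircle]; exact hyb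
    · push Not at hy
      rw [Finset.sum_eq_zero]
      · exact abs_nonneg _
      · intro b hb
        rw [if_neg (not_le.2 (hy b hb))]
  calc t * mu (univ.filter (fun x => t < MX f x))
      ≤ t * ∑ b ∈ U, 144 * ((2:ℝ) ^ κ b)⁻¹ :=
        mul_le_mul_of_nonneg_left (h1.trans (Finset.sum_le_sum h2)) ht.le
    _ = 144 * ∑ b ∈ U, t * ((2:ℝ) ^ κ b)⁻¹ := by
        rw [Finset.mul_sum, Finset.mul_sum]
        exact Finset.sum_congr rfl fun b _ => by ring
    _ ≤ 144 * ave (fun y => |f y|) :=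
        mul_le_mul_of_nonneg_left ((Finset.sum_le_sum h3).trans h4) (by norm_num)

theorem pHL1 : P_HL1 := ⟨144, fun _ f _ ht => hl1 f ht⟩

/-! ## HL2 -/

theorem lc_A {δ A : ℝ} (hδ : 0 < δ) (hA : 0 ≤ A) (M : ℕ) :
    ∑ i ∈ range M, (if δ * 2 ^ i < A then δ * 2 ^ i else 0) ≤ 2 * A := by
  have hgeo : ∀ M : ℕ, ∑ i ∈ range M, (if δ * 2 ^ i < A then δ * 2 ^ i else 0) ≤ δ * 2 ^ M := by
    intro M
    induction M with
    | zero => simp [hδ.le]
    | succ m ih =>
      rw [Finset.sum_range_succ, pow_succ]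
      have : 0 < δ * 2 ^ m := by positivity
      split_ifs <;> linarith
  induction M with
  | zero => simpa using hA
  | succ m ih =>
    rw [Finset.sum_range_succ]
    split_ifs with h
    · have := hgeo m
      linarith
    · linarith

theorem lc_B {δ a : ℝ} (hδ : 0 < δ) (ha : 0 ≤ a) (M : ℕ) (h : a ≤ δ * 2 ^ M) :
    a ^ 2 ≤ δ ^ 2 + 4 * ∑ i ∈ range M, (if δ * 2 ^ i < a then (δ * 2 ^ i) ^ 2 else 0) := by
  induction M with
  | zero =>
    simp only [pow_zero, mul_one] at h
    simp only [Finset.range_zero, Finset.sum_empty, mul_zero, add_zero]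
    exact pow_le_pow_left₀ ha h 2
  | succ m ih =>
    rw [Finset.sum_range_succ]
    have hs : 0 ≤ ∑ i ∈ range m, (if δ * 2 ^ i < a then (δ * 2 ^ i) ^ 2 else 0) :=
      Finset.sum_nonneg fun i _ => by split_ifs <;> positivity
    by_cases hm : δ * 2 ^ m < a
    · rw [if_pos hm]
      have h2 : a ≤ 2 * (δ * 2 ^ m) := by rw [pow_succ] at h; linarith
      have : a ^ 2 ≤ (2 * (δ * 2 ^ m)) ^ 2 := pow_le_pow_left₀ ha h2 2
      nlinarith [sq_nonneg δ]
    · rw [if_neg hm, add_zero]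
      exact ih (not_lt.1 hm)

theorem hl2_weak (f : X K → ℝ) {s : ℝ} (hs : 0 < s) :
    s * mu (univ.filter (fun x => s < MX f x)) ≤
      288 * ave (fun x => if s < 32 * |f x| then |f x| else 0) := by
  set g : X K → ℝ := fun y => if s < 32 * |f y| then |f y| else 0 with hg
  have hsub : univ.filter (fun x => s < MX f x) ⊆ univ.filter (fun x => s / 2 < MX g x) := by
    intro x hx
    rw [mem_filter] at hx ⊢
    refine ⟨mem_univ _, ?_⟩
    have h1 : MX f x ≤ MX (fun y => g y + s / 32) x := by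
      refine MX_mono (fun y => ?_) x
      rw [abs_of_nonneg (a := g y + s / 32) (by
        simp only [hg]; split_ifs
        · positivity
        · positivity)]
      simp only [hg]
      split_ifs with h
      · linarith
      · rw [not_lt] at h; linarith
    have h2 := MX_add_le g (fun _ => s / 32) x
    have h3 : MX (fun _ : X K => s / 32) x ≤ 16 * (s / 32) :=
      MX_const_le (fun _ => by rw [abs_of_pos (by positivity)]) x
    linarith [hx.2]
  have h := hl1 g (t := s / 2) (by positivity)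
  have hg' : (fun x => |g x|) = g := by
    funext x
    simp only [hg]
    split_ifs
    · exact abs_abs _
    · exact abs_zero
  rw [hg'] at h
  have := mu_mono hsub
  nlinarith

theorem hl2 (f : X K → ℝ) : ave (fun x => MX f x ^ 2) ≤ 80000 * ave (fun x => f x ^ 2) := by
  have hf0 : 0 ≤ ave (fun x => f x ^ 2) := ave_nonneg fun x => sq_nonneg _
  rcases hf0.eq_or_lt with h0 | hpos
  · -- `f = 0`
    have hz : ∀ x, f x = 0 := by
      intro x
      unfold ave at h0
      have h1 : ∑ x, f x ^ 2 = 0 := by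
        have := h0.symm
        rw [div_eq_zero_iff] at this
        rcases this with h | h
        · exact h
        · exact absurd h (by positivity)
      rw [Finset.sum_eq_zero_iff_of_nonneg (fun x _ => sq_nonneg _)] at h1
      exact pow_eq_zero_iff two_ne_zero |>.1 (h1 x (mem_univ x))
    have hM : ∀ x, MX f x = 0 := by
      intro x
      refine le_antisymm ?_ (MX_nonneg f x)
      have := MX_const_le (f := f) (c := 0) (fun y => by rw [hz y, abs_zero]) x
      simpa using this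
    rw [← h0, mul_zero]
    refine le_of_eq ?_
    rw [← ave_const (K := K) 0]
    congr 1
    funext x
    rw [hM x]; norm_num
  · set δ : ℝ := Real.sqrt (ave (fun x => f x ^ 2)) with hδ
    have hδpos : 0 < δ := Real.sqrt_pos.2 hpos
    have hδsq : δ ^ 2 = ave (fun x => f x ^ 2) := Real.sq_sqrt hf0
    obtain ⟨R, hR⟩ : ∃ R : ℝ, ∀ x : X K, MX f x ≤ R :=
      ⟨(univ : Finset (X K)).sup' ⟨0, mem_univ _⟩ (MX f), fun x => Finset.le_sup' _ (mem_univ x)⟩
    obtain ⟨M, hM⟩ := pow_unbounded_of_one_lt (R / δ) (one_lt_two (α := ℝ))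
    have hRM : ∀ x, MX f x ≤ δ * 2 ^ M := fun x => by
      have : R < 2 ^ M * δ := (div_lt_iff₀ hδpos).1 hM
      linarith [hR x]
    calc ave (fun x => MX f x ^ 2)
        ≤ ave (fun x => δ ^ 2 + 4 * ∑ i ∈ range M,
            (if δ * 2 ^ i < MX f x then (δ * 2 ^ i) ^ 2 else 0)) :=
          ave_mono fun x => lc_B hδpos (MX_nonneg f x) M (hRM x)
      _ = δ ^ 2 + 4 * ∑ i ∈ range M,
            (δ * 2 ^ i) * ((δ * 2 ^ i) * mu (univ.filter (fun x => δ * 2 ^ i < MX f x))) := by
          rw [ave_add, ave_const, ave_mul_left, ave_sum]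
          congr 2
          refine Finset.sum_congr rfl fun i _ => ?_
          rw [mu_filter, ← mul_assoc, ← ave_mul_left]
          congr 1
          funext x
          split_ifs <;> ring
      _ ≤ δ ^ 2 + 4 * ∑ i ∈ range M, (δ * 2 ^ i) *
            (288 * ave (fun x => if δ * 2 ^ i < 32 * |f x| then |f x| else 0)) := by
          refine add_le_add le_rfl (mul_le_mul_of_nonneg_left (Finset.sum_le_sum fun i _ => ?_)
            (by norm_num))
          exact mul_le_mul_of_nonneg_left (hl2_weak f (by positivity)) (by positivity)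
      _ = δ ^ 2 + 4 * 288 * ave (fun x => |f x| *
            ∑ i ∈ range M, (if δ * 2 ^ i < 32 * |f x| then δ * 2 ^ i else 0)) := by
          have e : ave (fun x => |f x| *
              ∑ i ∈ range M, (if δ * 2 ^ i < 32 * |f x| then δ * 2 ^ i else 0)) =
              ∑ i ∈ range M, (δ * 2 ^ i) *
                ave (fun x => if δ * 2 ^ i < 32 * |f x| then |f x| else 0) := by
            simp only [Finset.mul_sum]
            rw [ave_sum]
            refine Finset.sum_congr rfl fun i _ => ?_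
            rw [← ave_mul_left]
            congr 1
            funext x
            split_ifs <;> ring
          rw [e, Finset.mul_sum, Finset.mul_sum]
          congr 1
          exact Finset.sum_congr rfl fun i _ => by ring
      _ ≤ δ ^ 2 + 4 * 288 * ave (fun x => 64 * f x ^ 2) := by
          gcongr with x
          refine ave_mono fun x => ?_
          have h1 := lc_A hδpos (A := 32 * |f x|) (by positivity) M
          have h2 : 0 ≤ |f x| := abs_nonneg _
          have h3 := mul_le_mul_of_nonneg_left h1 h2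
          have h4 : |f x| * |f x| = f x ^ 2 := by rw [← sq, sq_abs]
          nlinarith
      _ ≤ 80000 * ave (fun x => f x ^ 2) := by
          rw [ave_mul_left, hδsq]
          linarith

theorem pHL2 : P_HL2 := ⟨80000, fun _ f => hl2 f⟩

/-! ## HL3 -/

/-- pointwise majorant of the decaying weight by balls around `x` -/
theorem wt_le_balls {k : ℕ} {c x : X K} {B : ℝ} (hB : 0 ≤ B)
    (hx : nrm (x - c) ≤ B * ((2:ℝ) ^ k)⁻¹) (y : X K) :
    (1 + 2 ^ k * nrm (y - c))⁻¹ ^ 2 ≤ 4 * (1 + B) ^ 2 *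
      ∑ i ∈ range (k + 1), ((4:ℝ) ^ i)⁻¹ * (if nrm (x - y) ≤ ((2:ℝ) ^ (k - i))⁻¹ then 1 else 0) := by
  classical
  have hn := nrm_nonneg (y - c)
  have h2k : (0:ℝ) < 2 ^ k := by positivity
  have hpos : 0 < 1 + 2 ^ k * nrm (y - c) := by positivity
  have hterm : ∀ i ∈ range (k + 1), (0:ℝ) ≤ ((4:ℝ) ^ i)⁻¹ *
      (if nrm (x - y) ≤ ((2:ℝ) ^ (k - i))⁻¹ then 1 else 0) := fun i _ => by
    split_ifs <;> positivity
  -- the smallest `i` with `|x-y| ≤ 2^(i-k)`
  have hex : ∃ i, nrm (x - y) ≤ ((2:ℝ) ^ (k - i))⁻¹ := ⟨k, by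
    have := nrm_le_half (x - y)
    simp only [Nat.sub_self, pow_zero, inv_one]; linarith⟩
  set i := Nat.find hex with hi
  have hi1 : nrm (x - y) ≤ ((2:ℝ) ^ (k - i))⁻¹ := Nat.find_spec hex
  have hik : i ≤ k := Nat.find_min' hex (by
    have := nrm_le_half (x - y)
    simp only [Nat.sub_self, pow_zero, inv_one]; linarith)
  have hlow : (4:ℝ) ^ i ≤ 4 * (1 + B) ^ 2 * (1 + 2 ^ k * nrm (y - c)) ^ 2 := by
    have h1 : (2:ℝ) ^ i ≤ 2 * (1 + B) * (1 + 2 ^ k * nrm (y - c)) := by
      rcases Nat.eq_zero_or_pos i with h0 | h0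
      · rw [h0, pow_zero]
        nlinarith [mul_nonneg h2k.le hn, mul_nonneg hB (mul_nonneg h2k.le hn)]
      · have hmin := Nat.find_min hex (m := i - 1) (by omega)
        rw [not_le] at hmin
        have htri : nrm (x - y) ≤ nrm (y - c) + B * ((2:ℝ) ^ k)⁻¹ := by
          have := nrm_tri x c y
          rw [nrm_sub_comm c y] at this
          linarith
        have h3 : ((2:ℝ) ^ (k - (i - 1)))⁻¹ < nrm (y - c) + B * ((2:ℝ) ^ k)⁻¹ := hmin.trans_le htri
        have h4 : (2:ℝ) ^ k * ((2:ℝ) ^ (k - (i - 1)))⁻¹ = 2 ^ (i - 1) := by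
          have : k = (k - (i - 1)) + (i - 1) := by omega
          conv_lhs => rw [this, pow_add]
          rw [Nat.add_sub_cancel]
          field_simp
        have h5 : (2:ℝ) ^ (i - 1) < 2 ^ k * nrm (y - c) + B := by
          rw [← h4]
          have := mul_lt_mul_of_pos_left h3 h2k
          have e : (2:ℝ) ^ k * (nrm (y - c) + B * ((2:ℝ) ^ k)⁻¹) = 2 ^ k * nrm (y - c) + B := by
            field_simp
          linarith
        have h6 : (2:ℝ) ^ i = 2 * 2 ^ (i - 1) := by
          rw [← pow_succ']; congr 1; omega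
        rw [h6]
        nlinarith [mul_nonneg h2k.le hn, mul_nonneg hB (mul_nonneg h2k.le hn)]
    calc (4:ℝ) ^ i = (2 ^ i) ^ 2 := by rw [← pow_mul, mul_comm, pow_mul]; norm_num
      _ ≤ (2 * (1 + B) * (1 + 2 ^ k * nrm (y - c))) ^ 2 := pow_le_pow_left₀ (by positivity) h1 2
      _ = _ := by ring
  calc (1 + 2 ^ k * nrm (y - c))⁻¹ ^ 2 ≤ 4 * (1 + B) ^ 2 * ((4:ℝ) ^ i)⁻¹ := by
        rw [inv_pow, ← div_eq_mul_inv, inv_eq_one_div, div_le_div_iff₀ (by positivity)
          (by positivity), one_mul]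
        linarith
    _ = 4 * (1 + B) ^ 2 * (((4:ℝ) ^ i)⁻¹ *
          (if nrm (x - y) ≤ ((2:ℝ) ^ (k - i))⁻¹ then 1 else 0)) := by rw [if_pos hi1, mul_one]
    _ ≤ _ := mul_le_mul_of_nonneg_left (Finset.single_le_sum hterm
        (mem_range.2 (by omega))) (by positivity)

theorem sum_inv_two_pow (n : ℕ) : ∑ i ∈ range n, ((2:ℝ) ^ i)⁻¹ ≤ 2 := by
  have : ∑ i ∈ range n, ((2:ℝ) ^ i)⁻¹ = 2 - 2 * ((2:ℝ) ^ n)⁻¹ := by
    induction n with
    | zero => simp
    | succ m ih =>
      rw [Finset.sum_range_succ, ih, pow_succ]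
      field_simp
      ring
  rw [this]
  have : (0:ℝ) < ((2:ℝ) ^ n)⁻¹ := by positivity
  linarith

/-- general HL3: any point `x` within `B 2^-k` of the centre, any exponent `n ≥ 2` -/
theorem hl3 {n : ℕ} (hn2 : 2 ≤ n) {k : ℕ} (hk : k ≤ K) (f : X K → ℝ) {c x : X K} {B : ℝ} (hB : 0 ≤ B)
    (hx : nrm (x - c) ≤ B * ((2:ℝ) ^ k)⁻¹) :
    2 ^ k * ave (fun y => |f y| * (1 + 2 ^ k * nrm (y - c))⁻¹ ^ n) ≤
      8 * (1 + B) ^ 2 * MX f x := by
  have h2k : (0:ℝ) < 2 ^ k := by positivity
  calc 2 ^ k * ave (fun y => |f y| * (1 + 2 ^ k * nrm (y - c))⁻¹ ^ n)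
      ≤ 2 ^ k * ave (fun y => |f y| * (1 + 2 ^ k * nrm (y - c))⁻¹ ^ 2) := by
        refine mul_le_mul_of_nonneg_left (ave_mono fun y => ?_) h2k.le
        refine mul_le_mul_of_nonneg_left ?_ (abs_nonneg _)
        have hn := nrm_nonneg (y - c)
        refine pow_le_pow_of_le_one (by positivity) ?_ hn2
        exact inv_le_one_of_one_le₀ (by nlinarith [mul_nonneg h2k.le hn])
    _ ≤ 2 ^ k * ave (fun y => ∑ i ∈ range (k + 1), (4 * (1 + B) ^ 2 * ((4:ℝ) ^ i)⁻¹) *
          (if nrm (x - y) ≤ ((2:ℝ) ^ (k - i))⁻¹ then |f y| else 0)) := by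
        refine mul_le_mul_of_nonneg_left (ave_mono fun y => ?_) h2k.le
        refine (mul_le_mul_of_nonneg_left (wt_le_balls hB hx y) (abs_nonneg _)).trans
          (le_of_eq ?_)
        rw [Finset.mul_sum, Finset.mul_sum]
        refine Finset.sum_congr rfl fun i _ => ?_
        split_ifs <;> ring
    _ = ∑ i ∈ range (k + 1), (4 * (1 + B) ^ 2 * ((2:ℝ) ^ i)⁻¹) * av (k - i) f x := by
        rw [ave_sum, Finset.mul_sum]
        refine Finset.sum_congr rfl fun i hi => ?_
        rw [mem_range] at hi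
        rw [ave_mul_left]
        unfold av
        have e : (2:ℝ) ^ k = 2 ^ i * 2 ^ (k - i) := by
          rw [← pow_add]; congr 1; omega
        have e4 : (4:ℝ) ^ i = 2 ^ i * 2 ^ i := by
          rw [← mul_pow]; norm_num
        rw [e, e4]
        field_simp
    _ ≤ ∑ i ∈ range (k + 1), (4 * (1 + B) ^ 2 * ((2:ℝ) ^ i)⁻¹) * MX f x := by
        refine Finset.sum_le_sum fun i _ => ?_
        exact mul_le_mul_of_nonneg_left (av_le_MX (by omega) f x) (by positivity)
    _ = 4 * (1 + B) ^ 2 * MX f x * ∑ i ∈ range (k + 1), ((2:ℝ) ^ i)⁻¹ := by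
        rw [Finset.mul_sum]
        exact Finset.sum_congr rfl fun i _ => by ring
    _ ≤ 4 * (1 + B) ^ 2 * MX f x * 2 :=
        mul_le_mul_of_nonneg_left (sum_inv_two_pow _)
          (mul_nonneg (by positivity) (MX_nonneg f x))
    _ = _ := by ring

theorem pHL3 : P_HL3 := ⟨8 * (1 + 16) ^ 2, fun _ _ f _ _ hk hx =>
  hl3 le_rfl hk f (by norm_num) hx⟩

end Vale.Agent.P091.CH.H69
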