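import Vale.Agent.P091.CH.Light
import Vale.Agent.P091.CH.H69.HL

/-!
# P091, row P_LIGHT (helper69): the light part from MODT, MSU, MS0 and FAR
-/

open Finset

namespace Vale.Agent.P091.CH.H69

variable {K : ℕ}

theorem wt_le_wt (k : ℕ) (c c' x : X K) :
    wt k c x ≤ (1 + 2 ^ k * nrm (c - c')) ^ 10 * wt k c' x := by
  unfold wt
  have h2 : (0:ℝ) < 2 ^ k := by positivity
  have hx := nrm_nonneg (x - c)
  have hx' := nrm_nonneg (x - c')
  have hc := nrm_nonneg (c - c')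
  have ht : nrm (x - c') ≤ nrm (x - c) + nrm (c - c') := nrm_tri x c c'
  have p1 : 0 < 1 + 2 ^ k * nrm (x - c) := by positivity
  have p2 : 0 < 1 + 2 ^ k * nrm (x - c') := by positivity
  have p3 : 0 < 1 + 2 ^ k * nrm (c - c') := by positivity
  have key : (1 + 2 ^ k * nrm (x - c))⁻¹ ≤ (1 + 2 ^ k * nrm (c - c')) * (1 + 2 ^ k * nrm (x - c'))⁻¹ := by
    rw [← div_eq_mul_inv, inv_eq_one_div, div_le_div_iff₀ p1 p2]
    have h3 : 2 ^ k * nrm (x - c') ≤ 2 ^ k * nrm (x - c) + 2 ^ k * nrm (c - c') := by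
      rw [← mul_add]; exact mul_le_mul_of_nonneg_left ht h2.le
    have h4 : 0 ≤ (2 ^ k * nrm (c - c')) * (2 ^ k * nrm (x - c)) := by positivity
    nlinarith
  rw [← mul_pow]
  exact pow_le_pow_left₀ (by positivity) key 10

/-- comparison of the densities of two translates -/
theorem dens_le_dens (E : Finset (X K)) (N : X K → ℤ) (k j j' : ℕ) (l : ℤ) :
    dens E N ⟨k, j, l⟩ ≤ (1 + 2 ^ k * nrm (pt K k j 0 - pt K k j' 0)) ^ 10 * dens E N ⟨k, j', l⟩ := by
  unfold dens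
  rw [← ave_mul_left]
  refine ave_mono fun x => ?_
  by_cases h : x ∈ E ∧ N x / 2 ^ k = l
  · simp only [if_pos h]
    exact wt_le_wt k _ _ x
  · simp only [if_neg h, mul_zero, le_refl]

/-- the own tile of `x` is dominated by the translate over `x` of every tile dominating `s` -/
theorem dom_tlx {s u : Tile} {N : X K → ℤ} {x : X K} (hs : s.k ≤ K) (hN : N x / 2 ^ s.k = s.l)
    (h : Dom s u) : Dom (tlx s.k N x) ⟨u.k, x.val / 2 ^ (K - u.k), u.l⟩ := by
  obtain ⟨h1, -, h3⟩ := h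
  refine ⟨h1, ?_, ?_⟩
  · show x.val / 2 ^ (K - s.k) / 2 ^ (s.k - u.k) = x.val / 2 ^ (K - u.k)
    rw [Nat.div_div_eq_div_mul, ← pow_add]
    congr 2
    omega
  · show |u.l / 2 ^ (s.k - u.k) - N x / 2 ^ s.k| ≤ 11
    rw [hN]
    exact h3

/-- a point which sees a tile below a heavy tile is far from the heavy tile -/
theorem far_of {s u : Tile} {E : Finset (X K)} {N : X K → ℤ} {κ : X K → ℕ} {δ μ : ℝ} {x : X K}
    (hs : s.k ≤ K) (hu : u.k + 6 ≤ K) (hstop : StopLe E N κ δ) (hx : x ∈ E)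
    (hN : N x / 2 ^ s.k = s.l) (hκ : s.k < κ x) (h : Dom s u) (hheavy : μ * u.len < dens E N u) :
    μ < (2 + 2 ^ u.k * nrm (x - u.c K)) ^ 10 * δ := by
  have h1 := hstop x hx s.k hκ _ (dom_tlx hs hN h)
  have h2 := dens_le_dens E N u.k u.j (x.val / 2 ^ (K - u.k)) u.l
  have h2k : (0:ℝ) < 2 ^ u.k := by positivity
  have hlen : (0:ℝ) < u.len := by unfold Tile.len; positivity
  have h3 : nrm (pt K u.k u.j 0 - pt K u.k (x.val / 2 ^ (K - u.k)) 0)
      ≤ nrm (x - u.c K) + ((2:ℝ) ^ u.k)⁻¹ := by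
    have h4 := nrm_tri (pt K u.k u.j 0) x (pt K u.k (x.val / 2 ^ (K - u.k)) 0)
    have h5 := nrm_sub_pt_le (K := K) (k := u.k) (j := x.val / 2 ^ (K - u.k)) (r := 0) (x := x)
      (by omega) (by norm_num) (mem_dy.2 rfl)
    rw [nrm_sub_comm (pt K u.k u.j 0) x] at h4
    exact h4.trans (add_le_add le_rfl h5)
  have h6 : 1 + 2 ^ u.k * nrm (pt K u.k u.j 0 - pt K u.k (x.val / 2 ^ (K - u.k)) 0)
      ≤ 2 + 2 ^ u.k * nrm (x - u.c K) := by
    have := mul_le_mul_of_nonneg_left h3 h2k.le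
    rw [mul_add, mul_inv_cancel₀ h2k.ne'] at this
    linarith
  have h7 : (1 + 2 ^ u.k * nrm (pt K u.k u.j 0 - pt K u.k (x.val / 2 ^ (K - u.k)) 0)) ^ 10
      ≤ (2 + 2 ^ u.k * nrm (x - u.c K)) ^ 10 :=
    pow_le_pow_left₀ (by have := nrm_nonneg (pt K u.k u.j 0 - pt K u.k (x.val / 2 ^ (K - u.k)) 0); positivity) h6 10
  have h8 : dens E N ⟨u.k, x.val / 2 ^ (K - u.k), u.l⟩ ≤ δ * u.len := h1
  have h9 : μ * u.len < (2 + 2 ^ u.k * nrm (x - u.c K)) ^ 10 * (δ * u.len) := by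
    have hδ : 0 ≤ dens E N ⟨u.k, x.val / 2 ^ (K - u.k), u.l⟩ := by
      unfold dens
      refine ave_nonneg fun y => ?_
      split_ifs
      · unfold wt; have := nrm_nonneg (y - (Tile.c ⟨u.k, x.val / 2 ^ (K - u.k), u.l⟩ K)); positivity
      · exact le_rfl
    calc μ * u.len < dens E N u := hheavy
      _ ≤ _ := h2
      _ ≤ (2 + 2 ^ u.k * nrm (x - u.c K)) ^ 10 * dens E N ⟨u.k, x.val / 2 ^ (K - u.k), u.l⟩ :=
          mul_le_mul_of_nonneg_right h7 hδ
      _ ≤ _ := mul_le_mul_of_nonneg_left h8 (by have := nrm_nonneg (x - u.c K); positivity)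
  rw [← mul_assoc] at h9
  exact lt_of_mul_lt_mul_right h9 hlen.le

theorem ms0_all {C0 : ℝ} (h0 : ∀ (K : ℕ) (E : Finset (X K)) (N : X K → ℤ) (P : Finset Tile),
    Good K P → MsLe E N P C0) (E : Finset (X K)) (N : X K → ℤ) (P : Finset Tile)
    (hP : ∀ s ∈ P, s.Ok K) : MsLe E N P C0 := by
  intro s hs u hu
  refine h0 K E N {s} ⟨?_, ?_⟩ s (mem_singleton_self s) u hu
  · intro a ha b hb
    rw [mem_singleton] at ha hb
    subst ha; subst hb
    exact ⟨rfl, rfl⟩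
  · intro a ha
    rw [mem_singleton] at ha
    subst ha
    exact hP _ hs

/-- **P_LIGHT** from MODT, MSU, MS0 and FAR -/
theorem pLIGHT_of (hT : P_MODT) (hU : P_MSU) (h0 : P_MS0) (hF : P_FAR) : P_LIGHT := by
  intro B
  obtain ⟨CT, hT⟩ := hT B
  obtain ⟨CU, hU⟩ := hU
  obtain ⟨C0, h0⟩ := h0
  obtain ⟨CF, hF⟩ := hF B
  -- constants
  refine ⟨|CT| * (√(max C0 1) * 5 ^ 5) + |CT| + |CF| * ((5/4) ^ 15 * |CU|), ?_⟩
  intro m mt hm hmt K r hr f g N κ E P δ M hδ hδ1 hf hg hP hstop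
  have hM : 0 ≤ M := (norm_nonneg _).trans (hf 0)
  have hS : 0 ≤ √(ave (fun x => ‖f x‖ ^ 2)) := Real.sqrt_nonneg _
  have hmu : √(mu E) ≤ 1 := by
    rw [Real.sqrt_le_left (by norm_num), one_pow]; exact mu_le_one E
  have hmu0 := Real.sqrt_nonneg (mu E)
  have hd4 : 0 < δ ^ (1/4 : ℝ) := Real.rpow_pos_of_pos hδ _
  have c1 : 0 ≤ √(max C0 1) * 5 ^ 5 := by positivity
  rcases le_or_gt δ (1 / 5 ^ 20) with hsmall | hbig
  · -- small δ
    obtain ⟨a, ha0, ha20, ha4⟩ : ∃ a : ℝ, 0 < a ∧ δ = a ^ 20 ∧ δ ^ (1/4 : ℝ) = a ^ 5 := by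
      refine ⟨δ ^ (1/20 : ℝ), Real.rpow_pos_of_pos hδ _, ?_, ?_⟩
      · rw [← Real.rpow_natCast, ← Real.rpow_mul hδ.le]
        norm_num
      · rw [← Real.rpow_natCast, ← Real.rpow_mul hδ.le]
        norm_num
    have ha5 : a ≤ 1 / 5 := by
      by_contra hc
      push Not at hc
      have := pow_lt_pow_left₀ hc (by norm_num) (show 20 ≠ 0 by norm_num)
      rw [← ha20, div_pow, one_pow] at this
      linarith
    have hs10 : √(a ^ 10) = a ^ 5 := by
      rw [show a ^ 10 = (a ^ 5) ^ 2 by ring]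
      exact Real.sqrt_sq (by positivity)
    rw [ha4]
    classical
    set P1 := P.filter (fun s => ∀ u, Dom s u → dens E N u ≤ a ^ 10 * u.len) with hP1
    set P2 := P.filter (fun s => ¬ ∀ u, Dom s u → dens E N u ≤ a ^ 10 * u.len) with hP2
    rw [← sum_filter_add_sum_filter_not P (fun s => ∀ u, Dom s u → dens E N u ≤ a ^ 10 * u.len)]
    -- the light tiles
    have hms : MsLe E N P1 (a ^ 10) := fun s hs u hu => (mem_filter.1 hs).2 u hu
    have h1 := hT m mt hm hmt K r hr f g N κ E P1 (a ^ 10) (by positivity) hg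
      (fun s hs => hP s (mem_filter.1 hs).1) hms
    rw [hs10] at h1
    have h1' : ∑ s ∈ P1, s.len * ‖co m r f s‖ * ‖bcoT mt r g N κ s‖
        ≤ |CT| * a ^ 5 * √(ave (fun x => ‖f x‖ ^ 2)) := by
      calc _ ≤ CT * a ^ 5 * √(ave (fun x => ‖f x‖ ^ 2)) * √(mu E) := h1
        _ ≤ |CT| * a ^ 5 * √(ave (fun x => ‖f x‖ ^ 2)) * 1 := by
            gcongr
            exact le_abs_self CT
        _ = _ := by ring
    -- the far tiles
    obtain ⟨U, hU1, hU2, hU3⟩ := hU K E N P2 (a ^ 10) (fun s hs => hP s (mem_filter.1 hs).1)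
      (by positivity)
    have hai : 5 ≤ a⁻¹ := by
      rw [le_inv_comm₀ (by norm_num) ha0]
      linarith
    have hR : 4 ≤ a⁻¹ - 1 := by linarith
    have h2 := hF m mt hm hmt K r hr f g N κ E P2 U (a⁻¹ - 1) M hR hf hg
      (fun s hs => hP s (mem_filter.1 hs).1) (fun u hu => ⟨(hU1 u hu).1, (hU1 u hu).2.1⟩) (by
        intro s hs
        rcases hU2 s hs with h | ⟨u, huU, hsu⟩
        · exact absurd h (mem_filter.1 hs).2
        · refine ⟨u, huU, hsu, fun x hx hN hκ => ?_⟩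
          have hsK := (hP s (mem_filter.1 hs).1).1
          have h3 := far_of (K := K) (by omega) (hU1 u huU).1 hstop hx hN hκ hsu (hU1 u huU).2.2
          have hz : 0 ≤ 2 ^ u.k * nrm (x - u.c K) := by
            have := nrm_nonneg (x - u.c K)
            positivity
          rw [ha20] at h3
          have h4 : 1 < ((2 + 2 ^ u.k * nrm (x - u.c K)) * a) ^ 10 := by
            have e : (2 + 2 ^ u.k * nrm (x - u.c K)) ^ 10 * a ^ 20
                = ((2 + 2 ^ u.k * nrm (x - u.c K)) * a) ^ 10 * a ^ 10 := by ring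
            rw [e] at h3
            have h5 : (1:ℝ) * a ^ 10 < ((2 + 2 ^ u.k * nrm (x - u.c K)) * a) ^ 10 * a ^ 10 := by
              rw [one_mul]; exact h3
            exact lt_of_mul_lt_mul_right h5 (by positivity)
          have h6 : 1 ≤ (2 + 2 ^ u.k * nrm (x - u.c K)) * a := by
            by_contra hc
            push Not at hc
            have := pow_le_one₀ (n := 10) (by positivity) hc.le
            linarith
          have h7 : a⁻¹ ≤ 2 + 2 ^ u.k * nrm (x - u.c K) := by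
            rw [inv_eq_one_div, div_le_iff₀ ha0]
            exact h6
          linarith)
    have hRi : (a⁻¹ - 1)⁻¹ ^ 15 ≤ (5/4) ^ 15 * a ^ 15 := by
      rw [← mul_pow]
      refine pow_le_pow_left₀ (by positivity) ?_ 15
      rw [inv_le_comm₀ (by linarith) (by positivity)]
      have : ((5/4) * a)⁻¹ = (4/5) * a⁻¹ := by rw [mul_inv]; norm_num
      rw [this]
      linarith
    have hL0 : 0 ≤ ∑ u ∈ U, u.len := sum_nonneg fun u _ => by unfold Tile.len; positivity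
    have hUU : a ^ 10 * ∑ u ∈ U, u.len ≤ |CU| := by
      rw [mul_comm]
      refine hU3.trans ?_
      calc CU * mu E ≤ |CU| * mu E := mul_le_mul_of_nonneg_right (le_abs_self _) (mu_nonneg E)
        _ ≤ |CU| * 1 := mul_le_mul_of_nonneg_left (mu_le_one E) (abs_nonneg _)
        _ = |CU| := mul_one _
    have h2' : ∑ s ∈ P2, s.len * ‖co m r f s‖ * ‖bcoT mt r g N κ s‖
        ≤ |CF| * ((5/4) ^ 15 * |CU|) * a ^ 5 * M := by
      have hRp : 0 ≤ (a⁻¹ - 1)⁻¹ ^ 15 := by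
        have : 0 < a⁻¹ - 1 := by linarith
        positivity
      calc _ ≤ CF * M * (a⁻¹ - 1)⁻¹ ^ 15 * ∑ u ∈ U, u.len := h2
        _ ≤ |CF| * M * ((5/4) ^ 15 * a ^ 15) * ∑ u ∈ U, u.len := by
            gcongr
            exact le_abs_self CF
        _ = |CF| * M * (5/4) ^ 15 * a ^ 5 * (a ^ 10 * ∑ u ∈ U, u.len) := by ring
        _ ≤ |CF| * M * (5/4) ^ 15 * a ^ 5 * |CU| := by gcongr
        _ = _ := by ring
    have f1 : |CT| * a ^ 5 * √(ave (fun x => ‖f x‖ ^ 2))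
        ≤ |CT| * a ^ 5 * (√(ave (fun x => ‖f x‖ ^ 2)) + M) := by
      gcongr
      linarith
    have f2 : |CF| * ((5/4) ^ 15 * |CU|) * a ^ 5 * M
        ≤ |CF| * ((5/4) ^ 15 * |CU|) * a ^ 5 * (√(ave (fun x => ‖f x‖ ^ 2)) + M) := by
      gcongr
      linarith
    have f3 : 0 ≤ |CT| * (√(max C0 1) * 5 ^ 5) * a ^ 5 * (√(ave (fun x => ‖f x‖ ^ 2)) + M) := by
      positivity
    have e : (|CT| * (√(max C0 1) * 5 ^ 5) + |CT| + |CF| * ((5/4) ^ 15 * |CU|)) * a ^ 5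
        * (√(ave (fun x => ‖f x‖ ^ 2)) + M)
        = |CT| * (√(max C0 1) * 5 ^ 5) * a ^ 5 * (√(ave (fun x => ‖f x‖ ^ 2)) + M)
          + |CT| * a ^ 5 * (√(ave (fun x => ‖f x‖ ^ 2)) + M)
          + |CF| * ((5/4) ^ 15 * |CU|) * a ^ 5 * (√(ave (fun x => ‖f x‖ ^ 2)) + M) := by ring
    rw [e]
    linarith
  · -- δ near 1
    have hC : 0 < max C0 1 := lt_max_of_lt_right one_pos
    have hms : MsLe E N P (max C0 1) := fun s hs u hu =>
      (ms0_all h0 E N P hP s hs u hu).trans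
        (mul_le_mul_of_nonneg_right (le_max_left _ _) (by unfold Tile.len; positivity))
    have h1 := hT m mt hm hmt K r hr f g N κ E P (max C0 1) hC hg hP hms
    have h5 : 1 ≤ 5 ^ 5 * δ ^ (1/4 : ℝ) := by
      have h6 : ((1:ℝ) / 5 ^ 20) ^ (1/4 : ℝ) ≤ δ ^ (1/4 : ℝ) :=
        Real.rpow_le_rpow (by positivity) hbig.le (by norm_num)
      have h7 : ((1:ℝ) / 5 ^ 20) ^ (1/4 : ℝ) = 1 / 5 ^ 5 := by
        have : ((1:ℝ) / 5 ^ 20) = (1 / 5 ^ 5) ^ (4:ℝ) := by
          rw [show (4:ℝ) = ((4:ℕ):ℝ) by norm_num, Real.rpow_natCast]; norm_num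
        rw [this, ← Real.rpow_mul (by positivity)]
        norm_num
      rw [h7] at h6
      have h8 := mul_le_mul_of_nonneg_left h6 (show (0:ℝ) ≤ 5 ^ 5 by norm_num)
      have h9 : (5:ℝ) ^ 5 * (1 / 5 ^ 5) = 1 := by norm_num
      linarith
    calc _ ≤ CT * √(max C0 1) * √(ave (fun x => ‖f x‖ ^ 2)) * √(mu E) := h1
      _ ≤ |CT| * √(max C0 1) * √(ave (fun x => ‖f x‖ ^ 2)) * 1 := by
          gcongr
          exact le_abs_self CT
      _ ≤ |CT| * √(max C0 1) * √(ave (fun x => ‖f x‖ ^ 2)) * (5 ^ 5 * δ ^ (1/4 : ℝ)) := by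
          gcongr
      _ = (|CT| * (√(max C0 1) * 5 ^ 5)) * δ ^ (1/4 : ℝ) * √(ave (fun x => ‖f x‖ ^ 2)) := by ring
      _ ≤ _ := by
          have e1 : |CT| * (√(max C0 1) * 5 ^ 5) ≤
              |CT| * (√(max C0 1) * 5 ^ 5) + |CT| + |CF| * ((5/4) ^ 15 * |CU|) := by
            have : 0 ≤ |CT| + |CF| * ((5/4) ^ 15 * |CU|) := by positivity
            linarith
          have e2 : √(ave (fun x => ‖f x‖ ^ 2)) ≤ √(ave (fun x => ‖f x‖ ^ 2)) + M := by linarith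
          exact mul_le_mul (mul_le_mul_of_nonneg_right e1 hd4.le) e2 hS (by positivity)

end Vale.Agent.P091.CH.H69
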